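import Vale.Agent.P192.R2.H175.Window
import Vale.Agent.P192.R2.H102.PruneU

/-!
# P192, round 5, row P7: the topological full group of the full shift
-/

namespace Vale.Agent.P192.R2.H360

open Vale.Agent.P192 Topology

/-- the shift on `A^H` is topologically free: a locally constant translation function is determined
by the map -/
theorem shift_unique (H A : Type) [Group H] [Infinite H] [Finite A] [Nontrivial A]
    [TopologicalSpace A] [DiscreteTopology A] (c c' : (H → A) → H) (hc : IsLocallyConstant c)
    (hc' : IsLocallyConstant c') (h : ∀ (ω : H → A) (k : H), ω (k * c ω) = ω (k * c' ω)) :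
    c = c' := by
  classical
  obtain ⟨⟨W, hW⟩, -⟩ := exists_window H A H c hc
  obtain ⟨⟨W', hW'⟩, -⟩ := exists_window H A H c' hc'
  funext ω₀
  by_contra hne
  obtain ⟨k, hk⟩ := Infinite.exists_notMem_finset
    (((W ∪ W').image fun w => w * (c ω₀)⁻¹) ∪ ((W ∪ W').image fun w => w * (c' ω₀)⁻¹))
  have h1 : k * c ω₀ ∉ W ∪ W' := fun hm => hk (Finset.mem_union_left _
    (Finset.mem_image.2 ⟨_, hm, by group⟩))
  have hne2 : k * c' ω₀ ≠ k * c ω₀ := fun he => hne (mul_left_cancel he).symm
  obtain ⟨x, hx⟩ := exists_ne (ω₀ (k * c' ω₀))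
  have e1 : c (Function.update ω₀ (k * c ω₀) x) = c ω₀ := hW _ _ fun j hj =>
    Function.update_of_ne (fun he => h1 (by rw [← he]; exact Finset.mem_union_left _ hj)) _ _
  have e2 : c' (Function.update ω₀ (k * c ω₀) x) = c' ω₀ := hW' _ _ fun j hj =>
    Function.update_of_ne (fun he => h1 (by rw [← he]; exact Finset.mem_union_right _ hj)) _ _
  have e3 := h (Function.update ω₀ (k * c ω₀) x) k
  rw [e1, e2, Function.update_self, Function.update_of_ne hne2] at e3
  exact hx e3

/-- (P7) the topological full group of the full shift over `H`: the cocycle identity holds because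
the shift is topologically free (`H` infinite, `A` nontrivial); then (P5) with `Z` a point; `H`
finite or `A` trivial: the permutation group is finite -/
theorem full_shift (H : Type) [Group H] (hH : FPB H) (A : Type) [Finite A] [TopologicalSpace A]
    [DiscreteTopology A] (G : Type) [Group G] [Group.IsFinitelyPresented G] (hG : IsMulTorsion G)
    (ρ : G →* Equiv.Perm (H → A))
    (h : ∀ g, ∃ c : (H → A) → H, IsLocallyConstant c ∧ ∀ ω, ρ g ω = fun k => ω (k * c ω)) :
    Finite ρ.range := by
  classical
  rcases subsingleton_or_nontrivial A with hA | hA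
  · infer_instance
  rcases finite_or_infinite H with hHf | hHi
  · infer_instance
  choose c hc hρ using h
  have hcont : ∀ g, Continuous fun ω : H → A => (fun k => ω (k * c g ω)) := by
    intro g
    refine continuous_pi fun k => continuous_iff_continuousAt.2 fun ω₀ => ?_
    refine ((continuous_apply (k * c g ω₀)).continuousAt (x := ω₀)).congr ?_
    filter_upwards [(hc g).eventually_eq ω₀] with ω hω
    rw [hω]
  have hmul : ∀ g g', ∀ ω, c (g * g') ω = c g (fun k => ω (k * c g' ω)) * c g' ω := by
    intro g g'
    have hl : IsLocallyConstant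
        (fun ω : H → A => c g (fun k => ω (k * c g' ω)) * c g' ω) :=
      ((hc g).comp_continuous (hcont g')).mul (hc g')
    have := shift_unique H A _ _ (hc (g * g')) hl fun ω k => by
      have e1 : ρ (g * g') ω k = ω (k * c (g * g') ω) := by rw [hρ]
      have e2 : ρ (g * g') ω k = ω (k * (c g (fun k => ω (k * c g' ω)) * c g' ω)) := by
        rw [map_mul, Equiv.Perm.mul_apply, hρ g, hρ g', ← mul_assoc]
      rw [← e1, e2]
    exact fun ω => congrFun this ω
  have hone : ∀ ω, c 1 ω = 1 := by
    have := shift_unique H A (c 1) (fun _ => 1) (hc 1) (IsLocallyConstant.const 1) fun ω k => by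
      have e1 : ρ 1 ω k = ω (k * c 1 ω) := by rw [hρ]
      rw [← e1, map_one, mul_one]
      rfl
    exact fun ω => congrFun this ω
  obtain ⟨a₀⟩ : Nonempty A := inferInstance
  let _i : MulAction H Unit :=
    { smul := fun _ z => z
      one_smul := fun _ => rfl
      mul_smul := fun _ _ _ => rfl }
  have hback : {x | ∃ (g : G) (_ζ : Unit), c g (fun _ => a₀) = x}.Finite := by
    let f : G →* H := MonoidHom.mk' (fun g => c g (fun _ => a₀)) fun g g' => hmul g g' _
    have hf : Finite f.range := hH G inferInstance hG f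
    refine (Set.toFinite (f.range : Set H)).subset ?_
    rintro x ⟨g, -, rfl⟩
    exact ⟨g, rfl⟩
  obtain ⟨N, hN, hNf, hN1⟩ := H102.cocycle_bounded G hG H A Unit a₀ (fun g ω _ => c g ω)
    (fun g g' ω _ => hmul g g' ω) (fun ω _ => hone ω)
    (fun g => by
      obtain ⟨⟨W, hW⟩, -⟩ := exists_window H A H (c g) (hc g)
      exact ⟨W, fun ω ω' _ hk => hW ω ω' hk⟩)
    (fun g => by
      obtain ⟨-, hr⟩ := exists_window H A H (c g) (hc g)
      refine hr.subset ?_
      rintro x ⟨ω, -, rfl⟩
      exact ⟨ω, rfl⟩)
    hback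
  have hker : N ≤ ρ.ker := by
    intro g hg
    rw [MonoidHom.mem_ker]
    refine Equiv.ext fun ω => ?_
    rw [hρ g, hN1 g hg ω ()]
    simp
  have : ρ.ker.FiniteIndex := Subgroup.finiteIndex_of_le hker
  have : Finite (G ⧸ ρ.ker) := inferInstance
  exact Finite.of_equiv _ (QuotientGroup.quotientKerEquivRange ρ).toEquiv

end Vale.Agent.P192.R2.H360
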